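import Vale.Agent.P252.R.Spec
import Vale.Agent.P252.H338.Pd
import Vale.Agent.P252.H392.Calc

/-!
# B3: the weighted integral of `Λ` over a section
-/

open scoped ContDiff Topology
open Filter MeasureTheory

namespace Vale.Agent.P252.H723

open Vale.Agent.P252.R

/-- `s ↦ (s⁺)³` is differentiable. -/
lemma hasDerivAt_cube_pos (s : ℝ) :
    HasDerivAt (fun s : ℝ => (max s 0) ^ 3) (3 * (max s 0) ^ 2) s := by
  rcases lt_trichotomy s 0 with h | h | h
  · have h1 : (fun s : ℝ => (max s 0) ^ 3) =ᶠ[𝓝 s] fun _ => (0 : ℝ) := by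
      filter_upwards [isOpen_Iio.mem_nhds h] with y hy
      rw [max_eq_right (le_of_lt hy)]
      norm_num
    have h2 : (3 * (max s 0) ^ 2 : ℝ) = 0 := by
      rw [max_eq_right h.le]
      norm_num
    rw [h2]
    exact (hasDerivAt_const s (0 : ℝ)).congr_of_eventuallyEq h1
  · subst h
    have h0 : (3 * (max (0 : ℝ) 0) ^ 2 : ℝ) = 0 := by simp
    rw [h0]
    have h1 : HasDerivWithinAt (fun s : ℝ => (max s 0) ^ 3) 0 (Set.Iic 0) 0 := by
      refine (hasDerivWithinAt_const (0 : ℝ) (Set.Iic 0) (0 : ℝ)).congr (fun y hy => ?_) ?_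
      · rw [max_eq_right hy]; norm_num
      · norm_num
    have h2 : HasDerivWithinAt (fun s : ℝ => (max s 0) ^ 3) 0 (Set.Ici 0) 0 := by
      have h3 : HasDerivAt (fun s : ℝ => s ^ 3) (((3 : ℕ) : ℝ) * (0 : ℝ) ^ 2) 0 :=
        hasDerivAt_pow 3 (0 : ℝ)
      have h4 : (((3 : ℕ) : ℝ) * (0 : ℝ) ^ 2) = 0 := by norm_num
      rw [h4] at h3
      refine h3.hasDerivWithinAt.congr (fun y hy => ?_) ?_
      · rw [max_eq_left hy]
      · norm_num
    have h5 := h1.union h2
    rw [Set.Iic_union_Ici] at h5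
    exact hasDerivWithinAt_univ.mp h5
  · have h1 : (fun s : ℝ => (max s 0) ^ 3) =ᶠ[𝓝 s] fun y => y ^ 3 := by
      filter_upwards [isOpen_Ioi.mem_nhds h] with y hy
      rw [max_eq_left (le_of_lt hy)]
    rw [max_eq_left h.le]
    exact (hasDerivAt_pow 3 s).congr_of_eventuallyEq h1

lemma contDiff_cube_pos : ContDiff ℝ 1 (fun s : ℝ => (max s 0) ^ 3) := by
  rw [contDiff_one_iff_deriv]
  refine ⟨fun s => (hasDerivAt_cube_pos s).differentiableAt, ?_⟩
  have h : deriv (fun s : ℝ => (max s 0) ^ 3) = fun s => 3 * (max s 0) ^ 2 := by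
    funext s
    exact (hasDerivAt_cube_pos s).deriv
  rw [h]
  fun_prop

variable {n : ℕ} {Ω : Set (En n)} {u : En n → ℝ}

lemma sm_at (h : SC Ω u) {x : En n} (hx : x ∈ Ω) : C.Sm u x :=
  h.sm.contDiffAt (h.op.mem_nhds hx)

lemma contDiffOn_nu (h : SC Ω u) (α : Fin n → ℝ) (β γ : ℝ) :
    ContDiffOn ℝ ∞ (nu u α β γ) Ω := by
  unfold nu
  refine ContDiffOn.add (ContDiffOn.add ?_ ?_) contDiffOn_const
  · refine ContDiffOn.sum fun i _ => ?_
    exact contDiffOn_const.mul
      (EuclideanSpace.proj i : EuclideanSpace ℝ (Fin n) →L[ℝ] ℝ).contDiff.contDiffOn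
  · exact contDiffOn_const.mul h.sm

lemma pd_nu (h : SC Ω u) (α : Fin n → ℝ) (β γ : ℝ) {x : En n} (hx : x ∈ Ω) (i : Fin n) :
    pd i (nu u α β γ) x = α i + β * pd i u x := by
  have hu : DifferentiableAt ℝ u x := (sm_at h hx).da
  have hc : ∀ j : Fin n, DifferentiableAt ℝ (fun y : En n => α j * y j) x := fun j =>
    (C.sm_coord j x).da.const_mul (α j)
  have hs : DifferentiableAt ℝ (fun y : En n => ∑ j, α j * y j) x :=
    DifferentiableAt.fun_sum fun j _ => hc j
  unfold nu
  rw [C.pd_add i (hs.fun_add (hu.const_mul β)) (differentiableAt_const γ),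
    C.pd_add i hs (hu.const_mul β), C.pd_const, C.pd_const_mul i β hu,
    C.pd_sum Finset.univ i (fun j _ => hc j)]
  have h1 : ∀ j : Fin n, pd i (fun y : En n => α j * y j) x = if i = j then α j else 0 := by
    intro j
    rw [C.pd_const_mul i (α j) (C.sm_coord j x).da, C.pd_coord]
    split_ifs <;> simp
  rw [Finset.sum_congr rfl fun j _ => h1 j]
  simp

lemma continuousOn_pd (h : SC Ω u) (i : Fin n) : ContinuousOn (pd i u) Ω := by
  intro x hx
  exact ((sm_at h hx).pd i).continuousAt.continuousWithinAt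

/-- The divergence identity behind `lamInt`. -/
lemma div_identity (h : SC Ω u) (X : En n) (α : Fin n → ℝ) (β γ t : ℝ)
    (hK : IsCompact {x | x ∈ Ω ∧ nu u α β γ x ≤ t}) :
    ∫ x in {x | x ∈ Ω ∧ nu u α β γ x < t},
      ((n : ℝ) * (t - nu u α β γ x) ^ 3 -
        3 * ((t - nu u α β γ x) ^ 2 * ∑ i, pd i (nu u α β γ) x * (x i - X i))) = 0 := by
  set ν := nu u α β γ with hν
  have hνs : ContDiffOn ℝ ∞ ν Ω := contDiffOn_nu h α β γ
  have hνd : ∀ x ∈ Ω, DifferentiableAt ℝ ν x := fun x hx =>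
    (hνs.contDiffAt (h.op.mem_nhds hx)).differentiableAt (by simp)
  have hν1 : ContDiffOn ℝ 1 ν Ω := hνs.of_le (by simp)
  have key := H338.setIntegral_div_eq_zero (n := n) (Ω := Ω)
    (X := fun i x => (max (t - ν x) 0) ^ 3 * (x i - X i)) h.op hK (fun x hx => hx.1) ?_ ?_
  · have hsub : {x | x ∈ Ω ∧ ν x < t} ⊆ Ω := fun x hx => hx.1
    have hopen : IsOpen {x | x ∈ Ω ∧ ν x < t} := by
      have h1 : {x | x ∈ Ω ∧ ν x < t} = Ω ∩ ν ⁻¹' Set.Iio t := by
        ext x; simp
      rw [h1]
      exact hνs.continuousOn.isOpen_inter_preimage h.op isOpen_Iio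
    have hpd : ∀ x ∈ Ω, (∑ i, pd i (fun x => (max (t - ν x) 0) ^ 3 * (x i - X i)) x) =
        (n : ℝ) * (max (t - ν x) 0) ^ 3 -
          3 * ((max (t - ν x) 0) ^ 2 * ∑ i, pd i ν x * (x i - X i)) := by
      intro x hx
      have h1 : ∀ i : Fin n, pd i (fun x => (max (t - ν x) 0) ^ 3 * (x i - X i)) x =
          (max (t - ν x) 0) ^ 3 - 3 * ((max (t - ν x) 0) ^ 2 * (pd i ν x * (x i - X i))) := by
        intro i
        have h2 : DifferentiableAt ℝ (fun y => t - ν y) x := (hνd x hx).const_sub t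
        have h3 : pd i (fun y => (max (t - ν y) 0) ^ 3) x =
            3 * (max (t - ν x) 0) ^ 2 * pd i (fun y => t - ν y) x :=
          C.pd_comp i (hasDerivAt_cube_pos (t - ν x)) h2
        have h4 : pd i (fun y => t - ν y) x = - pd i ν x := by
          rw [C.pd_sub i (differentiableAt_const t) (hνd x hx), C.pd_const]
          ring
        have h5 : DifferentiableAt ℝ (fun y => (max (t - ν y) 0) ^ 3) x := by
          have h50 : DifferentiableAt ℝ (fun s : ℝ => (max s 0) ^ 3) ((fun y => t - ν y) x) :=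
            (hasDerivAt_cube_pos (t - ν x)).differentiableAt
          exact h50.comp x h2
        have h6 : DifferentiableAt ℝ (fun y : En n => y i - X i) x :=
          (C.sm_coord i x).da.sub_const (X i)
        have h7 : pd i (fun y : En n => y i - X i) x = 1 := by
          rw [C.pd_sub i (C.sm_coord i x).da (differentiableAt_const (X i)), C.pd_const,
            C.pd_coord]
          simp
        rw [C.pd_mul i h5 h6, h3, h4, h7]
        ring
      rw [Finset.sum_congr rfl fun i _ => h1 i, Finset.sum_sub_distrib, Finset.sum_const,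
        Finset.card_univ, Fintype.card_fin, nsmul_eq_mul, ← Finset.mul_sum, ← Finset.mul_sum]
    rw [setIntegral_congr_fun h.op.measurableSet hpd] at key
    rw [setIntegral_eq_of_subset_of_forall_sdiff_eq_zero h.op.measurableSet hsub ?_] at key
    · rw [← key]
      refine setIntegral_congr_fun hopen.measurableSet fun x hx => ?_
      have h1 : max (t - ν x) 0 = t - ν x := max_eq_left (by linarith [hx.2])
      simp only [h1]
    · intro x hx
      have h1 : max (t - ν x) 0 = 0 := by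
        refine max_eq_right ?_
        by_contra h2
        exact hx.2 ⟨hx.1, by linarith⟩
      simp only [h1]
      ring
  · intro i
    have h1 : ContDiffOn ℝ 1 (fun x => (max (t - ν x) 0) ^ 3) Ω :=
      contDiff_cube_pos.comp_contDiffOn (contDiffOn_const.sub hν1)
    refine h1.mul (ContDiffOn.sub ?_ contDiffOn_const)
    exact (EuclideanSpace.proj i : EuclideanSpace ℝ (Fin n) →L[ℝ] ℝ).contDiff.contDiffOn
  · intro i x hx hxK
    have h1 : max (t - ν x) 0 = 0 := by
      refine max_eq_right ?_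
      by_contra h2
      exact hxK ⟨hx, by linarith⟩
    simp only [h1]
    ring

/-- **B3.** -/
theorem lamInt (n : ℕ) : Stmt_lamInt n := by
  intro Ω u h X zX α β γ t hβ hK
  have hdiv := div_identity h X α β γ t hK
  set ν := nu u α β γ with hν
  set S := {x | x ∈ Ω ∧ ν x < t} with hS
  have hνs : ContDiffOn ℝ ∞ ν Ω := contDiffOn_nu h α β γ
  have hνc : ContinuousOn ν Ω := hνs.continuousOn
  have hSΩ : S ⊆ Ω := fun x hx => hx.1
  have hKΩ : {x | x ∈ Ω ∧ ν x ≤ t} ⊆ Ω := fun x hx => hx.1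
  have hSK : S ⊆ {x | x ∈ Ω ∧ ν x ≤ t} := fun x hx => ⟨hx.1, hx.2.le⟩
  have hopen : IsOpen S := by
    have h1 : S = Ω ∩ ν ⁻¹' Set.Iio t := by
      ext x; simp [hS]
    rw [h1]
    exact hνc.isOpen_inter_preimage h.op isOpen_Iio
  have hint : ∀ f : En n → ℝ, ContinuousOn f Ω → IntegrableOn f S := fun f hf =>
    ((hf.mono hKΩ).integrableOn_compact hK).mono_set hSK
  have hco : ∀ i : Fin n, ContinuousOn (fun x : En n => x i - X i) Ω := fun i =>
    ((EuclideanSpace.proj i : EuclideanSpace ℝ (Fin n) →L[ℝ] ℝ).continuous.continuousOn).sub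
      continuousOn_const
  have hpc : ∀ i : Fin n, ContinuousOn (pd i ν) Ω := by
    intro i
    have h1 : Set.EqOn (pd i ν) (fun x => α i + β * pd i u x) Ω := fun x hx =>
      pd_nu h α β γ hx i
    exact (continuousOn_const.add (continuousOn_const.mul (continuousOn_pd h i))).congr h1
  have hc2 : ContinuousOn (fun x => (t - ν x) ^ 2) Ω := (continuousOn_const.sub hνc).pow 2
  have hc3 : ContinuousOn (fun x => (t - ν x) ^ 3) Ω := (continuousOn_const.sub hνc).pow 3
  have hA : ContinuousOn (fun x => (t - ν x) ^ 2 * ∑ i, pd i ν x * (x i - X i)) Ω :=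
    hc2.mul (continuousOn_finsetSum _ fun i _ => (hpc i).mul (hco i))
  have hB : ContinuousOn (fun x => (t - ν x) ^ 2 * ∑ i, α i * (x i - X i)) Ω :=
    hc2.mul (continuousOn_finsetSum _ fun i _ => continuousOn_const.mul (hco i))
  have hC : ContinuousOn (fun x => (t - ν x) ^ 2 * (zX - u x)) Ω :=
    hc2.mul (continuousOn_const.sub h.sm.continuousOn)
  have hiA := hint _ hA
  have hiB := hint _ hB
  have hiC := hint _ hC
  have hi3 := hint _ hc3
  -- the divergence identity
  have h1 : ∫ x in S, (t - ν x) ^ 2 * ∑ i, pd i ν x * (x i - X i) =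
      (n : ℝ) / 3 * ∫ x in S, (t - ν x) ^ 3 := by
    rw [integral_sub (hi3.const_mul (n : ℝ)) (hiA.const_mul 3), integral_const_mul,
      integral_const_mul] at hdiv
    linarith
  -- the pointwise identity
  have h2 : ∀ x ∈ S, (t - ν x) ^ 2 * Lam u X zX x =
      ((t - ν x) ^ 2 * (zX - u x) + 1 / β * ((t - ν x) ^ 2 * ∑ i, pd i ν x * (x i - X i))) -
        1 / β * ((t - ν x) ^ 2 * ∑ i, α i * (x i - X i)) := by
    intro x hx
    have h3 : ∑ i, pd i ν x * (x i - X i) =
        ∑ i, α i * (x i - X i) - β * ∑ i, pd i u x * (X i - x i) := by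
      rw [Finset.mul_sum, ← Finset.sum_sub_distrib]
      refine Finset.sum_congr rfl fun i _ => ?_
      rw [pd_nu h α β γ hx.1 i]
      ring
    rw [h3]
    unfold Lam
    field_simp
    ring
  have hiCA : IntegrableOn (fun x => (t - ν x) ^ 2 * (zX - u x) +
      1 / β * ((t - ν x) ^ 2 * ∑ i, pd i ν x * (x i - X i))) S :=
    hiC.add (hiA.const_mul (1 / β))
  rw [setIntegral_congr_fun hopen.measurableSet h2,
    integral_sub hiCA (hiB.const_mul (1 / β)),
    integral_add hiC (hiA.const_mul (1 / β)), integral_const_mul, integral_const_mul, h1]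
  field_simp

end Vale.Agent.P252.H723
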